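import Vale.Agent.P328.Bin.SmearDefs

/-!
# P328, binary margins: the smearing lemma
-/

namespace Vale.P328U
namespace SMEAR
open Finset BigOperators

universe u v

variable {ι : Type u} [Fintype ι] [DecidableEq ι] {κ : Type v} [Fintype κ] [DecidableEq κ]

/-- move `a` units of `w` from column `j` to column `i` -/
def rm (w : κ → ℕ) (j i : κ) (a : ℕ) : κ → ℕ :=
  fun t => w t + (if t = i then a else 0) - (if t = j then a else 0)

omit [Fintype κ] in
lemma rm_add {w : κ → ℕ} {j i : κ} {a : ℕ} (h : a ≤ w j) (t : κ) :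
    rm w j i a t + (if t = j then a else 0) = w t + (if t = i then a else 0) := by
  unfold rm
  by_cases htj : t = j
  · subst htj
    rw [if_pos rfl]
    split_ifs <;> omega
  · rw [if_neg htj]; omega

lemma rm_sum {w : κ → ℕ} {j i : κ} {a : ℕ} (h : a ≤ w j) : ∑ t, rm w j i a t = ∑ t, w t := by
  have h1 : ∑ t, (rm w j i a t + (if t = j then a else 0)) =
      ∑ t, (w t + (if t = i then a else 0)) := sum_congr rfl fun t _ => rm_add h t
  rw [sum_add_distrib, sum_add_distrib] at h1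
  simp only [sum_ite_eq', mem_univ, if_true] at h1
  omega

omit [Fintype κ] in
lemma rm_inj {w w' : κ → ℕ} {j i : κ} {a : ℕ} (h : a ≤ w j) (h' : a ≤ w' j)
    (he : rm w j i a = rm w' j i a) : w = w' := by
  funext t
  have h1 := rm_add (i := i) h t
  have h2 := rm_add (i := i) h' t
  rw [he] at h1
  omega

/-- column sums -/
def CS (X : ι → κ → ℕ) (t : κ) : ℕ := ∑ i, X i t

omit [Fintype κ] [DecidableEq κ] in
lemma CS_upd (X : ι → κ → ℕ) (k : ι) (w : κ → ℕ) (t : κ) :
    CS (Function.update X k w) t + X k t = CS X t + w t := by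
  unfold CS
  have h1 : ∑ i, Function.update X k w i t = w t + ∑ i ∈ univ \ {k}, X i t := by
    rw [← sum_sdiff (subset_univ ({k} : Finset ι)), sum_singleton, Function.update_self, add_comm]
    congr 1
    refine sum_congr rfl fun i hi => ?_
    rw [mem_sdiff, mem_singleton] at hi
    rw [Function.update_of_ne hi.2]
  have h2 : ∑ i, X i t = X k t + ∑ i ∈ univ \ {k}, X i t := by
    rw [← sum_sdiff (subset_univ ({k} : Finset ι)), sum_singleton, add_comm]
  rw [h1, h2]; omega

lemma mem_Om {r : ι → ℕ} {c : κ → ℕ} {X : ι → κ → ℕ} :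
    X ∈ Om r c ↔ (∀ i, ∑ j, X i j = r i) ∧ ∀ j, CS X j ≤ c j := by
  unfold Om CS
  rw [mem_filter]
  constructor
  · rintro ⟨-, h⟩; exact h
  · intro h
    refine ⟨?_, h⟩
    rw [Fintype.mem_piFinset]
    intro i
    rw [Fintype.mem_piFinset]
    intro j
    rw [mem_range]
    have h1 : X i j ≤ ∑ i, X i j := single_le_sum (f := fun i => X i j) (fun _ _ => Nat.zero_le _)
      (mem_univ i)
    have := h.2 j
    omega

/-- the move of `a` units in row `k` from column `j` to column `i` -/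
def mv (k : ι) (j i : κ) (a : ℕ) (X : ι → κ → ℕ) : ι → κ → ℕ :=
  Function.update X k (rm (X k) j i a)

lemma mv_CS {k : ι} {j i : κ} {a : ℕ} {X : ι → κ → ℕ} (h : a ≤ X k j) (t : κ) :
    CS (mv k j i a X) t + (if t = j then a else 0) = CS X t + (if t = i then a else 0) := by
  have h1 := CS_upd X k (rm (X k) j i a) t
  have h2 := rm_add (i := i) h t
  unfold mv
  omega

omit [Fintype ι] [Fintype κ] in
lemma mv_other {k l : ι} {j i : κ} {a : ℕ} {X : ι → κ → ℕ} (h : l ≠ k) :
    mv k j i a X l = X l := by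
  unfold mv
  rw [Function.update_of_ne h]

omit [Fintype ι] [Fintype κ] in
lemma mv_self {k : ι} {j i : κ} {a : ℕ} {X : ι → κ → ℕ} :
    mv k j i a X k = rm (X k) j i a := by
  unfold mv
  rw [Function.update_self]

lemma mv_mem {r : ι → ℕ} {c : κ → ℕ} {k : ι} {j i : κ} {a : ℕ} {X : ι → κ → ℕ}
    (hX : X ∈ Om r c) (h : a ≤ X k j) (hi : a ≤ hb c X i) : mv k j i a X ∈ Om r c := by
  rw [mem_Om] at hX ⊢
  refine ⟨fun l => ?_, fun t => ?_⟩
  · by_cases hl : l = k
    · subst hl
      rw [mv_self, rm_sum h, hX.1]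
    · rw [mv_other hl, hX.1]
  · have h1 := mv_CS (i := i) h t
    have h2 := hX.2 t
    by_cases ht : t = i
    · subst ht
      rw [if_pos rfl] at h1
      have h3 : hb c X t = c t - CS X t := rfl
      rw [h3] at hi
      omega
    · rw [if_neg ht] at h1
      omega

omit [Fintype ι] [Fintype κ] in
lemma mv_inj {k : ι} {j i : κ} {a : ℕ} {X X' : ι → κ → ℕ} (h : a ≤ X k j) (h' : a ≤ X' k j)
    (he : mv k j i a X = mv k j i a X') : X = X' := by
  funext l
  by_cases hl : l = k
  · subst hl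
    have := congrFun he l
    rw [mv_self, mv_self] at this
    exact rm_inj h h' this
  · have := congrFun he l
    rwa [mv_other hl, mv_other hl] at this

/-- sparse push-forward -/
lemma sparse {P Y T : Type*} [DecidableEq Y] [Fintype T] [DecidableEq T] [DecidableEq P]
    (A : Finset P) (O : Finset Y) (phi : P → Y) (tau : P → T) (w : P → ℝ)
    (hphi : ∀ p ∈ A, phi p ∈ O)
    (hinj : ∀ p ∈ A, ∀ p' ∈ A, phi p = phi p' → tau p = tau p' → p = p') :
    ∑ y ∈ O, (∑ p ∈ A, if phi p = y then w p else 0) ^ 2 ≤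
      (Fintype.card T : ℝ) * ∑ p ∈ A, w p ^ 2 := by
  have h1 : ∀ y ∈ O, (∑ p ∈ A, if phi p = y then w p else 0) ^ 2 ≤
      (Fintype.card T : ℝ) * ∑ p ∈ A, if phi p = y then w p ^ 2 else 0 := by
    intro y _
    rw [← sum_filter, ← sum_filter]
    have h2 := sq_sum_le_card_mul_sum_sq (s := A.filter fun p => phi p = y) (f := w)
    refine h2.trans ?_
    apply mul_le_mul_of_nonneg_right _ (sum_nonneg fun _ _ => sq_nonneg _)
    have h3 : (A.filter fun p => phi p = y).card ≤ Fintype.card T := by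
      rw [← card_univ]
      apply card_le_card_of_injOn tau (fun _ _ => mem_coe.mpr (mem_univ _))
      intro p hp p' hp' he
      rw [mem_coe, mem_filter] at hp hp'
      exact hinj p hp.1 p' hp'.1 (hp.2.trans hp'.2.symm) he
    exact_mod_cast h3
  refine (sum_le_sum h1).trans ?_
  rw [← mul_sum, sum_comm]
  apply le_of_eq
  congr 1
  refine sum_congr rfl fun p hp => ?_
  rw [sum_ite_eq, if_pos (hphi p hp)]

lemma CS_le {r : ι → ℕ} {c : κ → ℕ} {X : ι → κ → ℕ} (hX : X ∈ Om r c) (j : κ) :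
    CS X j ≤ c j := (mem_Om.mp hX).2 j

lemma hb_eq (c : κ → ℕ) (X : ι → κ → ℕ) (j : κ) : hb c X j = c j - CS X j := rfl

/-- the hub has room somewhere -/
lemma hub_big {r : ι → ℕ} {c : κ → ℕ} (k : ι) (h : ∑ i, r i + r k + 1 ≤ ∑ j, c j)
    {X : ι → κ → ℕ} (hX : X ∈ Om r c) (j : κ) {i : κ}
    (hi : ∀ t, hb c X t ≤ hb c X i) : X k j + 1 ≤ Fintype.card κ * hb c X i := by
  have hm := mem_Om.mp hX
  have h1 : ∑ t, (hb c X t + CS X t) = ∑ t, c t := by
    refine sum_congr rfl fun t _ => ?_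
    have := hm.2 t
    rw [hb_eq]; omega
  have h2 : ∑ t, CS X t = ∑ i, r i := by
    unfold CS
    rw [sum_comm]
    exact sum_congr rfl fun i _ => hm.1 i
  have h3 : ∑ t, hb c X t ≤ Fintype.card κ * hb c X i := by
    calc ∑ t, hb c X t ≤ ∑ _t : κ, hb c X i := sum_le_sum fun t _ => hi t
      _ = Fintype.card κ * hb c X i := by rw [sum_const, card_univ, smul_eq_mul]
  have h4 : X k j ≤ r k := by
    rw [← hm.1 k]
    exact single_le_sum (f := fun j => X k j) (fun _ _ => Nat.zero_le _) (mem_univ j)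
  rw [sum_add_distrib, h2] at h1
  omega

theorem thmk (ι : Type u) [Fintype ι] [DecidableEq ι] (κ : Type v) [Fintype κ] [DecidableEq κ]
    (r : ι → ℕ) (c : κ → ℕ) (k l : ι) (psi : (ι → κ → ℕ) → ℝ) (jk jl : (ι → κ → ℕ) → κ)
    (hkl : k ≠ l) (hhub : ∑ i, r i + r k + 1 ≤ ∑ j, c j)
    (hpsi : ∀ X ∈ Om r c, psi X ≠ 0 → hb c X (jk X) = 0 ∧ hb c X (jl X) = 0 ∧
      1 ≤ X k (jk X) ∧ 1 ≤ X l (jl X)) :
    ∃ eta : (ι → κ → ℕ) → ℝ, MZ r c k eta ∧ MZ r c l eta ∧
      ∑ X ∈ Om r c, (eta X - psi X) ^ 2 ≤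
        100 * (Fintype.card κ : ℝ) ^ 4 *
          ∑ X ∈ Om r c, psi X ^ 2 * (1 / (X k (jk X) : ℝ) + 1 / (X l (jl X) : ℝ)) := by
  classical
  haveI : Nonempty κ := ⟨jk (fun _ _ => 0)⟩
  choose is his using fun X : ι → κ → ℕ => Finite.exists_max (hb c X)
  set S : Finset (ι → κ → ℕ) := (Om r c).filter fun X => psi X ≠ 0 ∧ 2 ≤ hb c X (is X) with hS
  set ell : (ι → κ → ℕ) → ℕ := fun X =>
    min (min (X k (jk X)) (X l (jl X))) (hb c X (is X) / 2) with hell
  have hSm : ∀ X ∈ S, X ∈ Om r c ∧ hb c X (jk X) = 0 ∧ hb c X (jl X) = 0 ∧ 1 ≤ ell X ∧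
      ell X ≤ X k (jk X) ∧ ell X ≤ X l (jl X) ∧ 2 * ell X ≤ hb c X (is X) ∧ is X ≠ jk X ∧
      is X ≠ jl X := by
    intro X hX
    rw [hS, mem_filter] at hX
    obtain ⟨h1, h2, h3⟩ := hX
    obtain ⟨h4, h5, h6, h7⟩ := hpsi X h1 h2
    refine ⟨h1, h4, h5, ?_, ?_, ?_, ?_, ?_, ?_⟩
    · rw [hell]; simp only [le_min_iff]; omega
    · exact (min_le_left _ _).trans (min_le_left _ _)
    · exact (min_le_left _ _).trans (min_le_right _ _)
    · have : ell X ≤ hb c X (is X) / 2 := min_le_right _ _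
      omega
    · intro he; rw [he] at h3; omega
    · intro he; rw [he] at h3; omega
  set A : Finset (Σ _ : (ι → κ → ℕ), ℕ) := S.sigma fun X => Icc 1 (ell X) with hA
  have hAm : ∀ p ∈ A, p.1 ∈ S ∧ 1 ≤ p.2 ∧ p.2 ≤ ell p.1 := by
    intro p hp
    rw [hA, mem_sigma, mem_Icc] at hp
    exact hp
  set w : (Σ _ : (ι → κ → ℕ), ℕ) → ℝ := fun p => psi p.1 / ell p.1 with hw
  set f1 : (Σ _ : (ι → κ → ℕ), ℕ) → (ι → κ → ℕ) :=
    fun p => mv k (jk p.1) (is p.1) p.2 p.1 with hf1
  set f2 : (Σ _ : (ι → κ → ℕ), ℕ) → (ι → κ → ℕ) :=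
    fun p => mv l (jl p.1) (is p.1) p.2 p.1 with hf2
  set f3 : (Σ _ : (ι → κ → ℕ), ℕ) → (ι → κ → ℕ) :=
    fun p => mv l (jl p.1) (is p.1) p.2 (f1 p) with hf3
  set tau : (Σ _ : (ι → κ → ℕ), ℕ) → κ × κ × κ := fun p => (jk p.1, jl p.1, is p.1) with htau
  -- the moves stay in the table space
  have hf1m : ∀ p ∈ A, f1 p ∈ Om r c := by
    intro p hp
    obtain ⟨h1, h2, h3⟩ := hAm p hp
    obtain ⟨g1, g2, g3, g4, g5, g6, g7, g8, g9⟩ := hSm _ h1
    exact mv_mem g1 (h3.trans g5) (by omega)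
  have hf2m : ∀ p ∈ A, f2 p ∈ Om r c := by
    intro p hp
    obtain ⟨h1, h2, h3⟩ := hAm p hp
    obtain ⟨g1, g2, g3, g4, g5, g6, g7, g8, g9⟩ := hSm _ h1
    exact mv_mem g1 (h3.trans g6) (by omega)
  have hf1l : ∀ p, f1 p l = p.1 l := fun p => mv_other hkl.symm
  have hf3m : ∀ p ∈ A, f3 p ∈ Om r c := by
    intro p hp
    obtain ⟨h1, h2, h3⟩ := hAm p hp
    obtain ⟨g1, g2, g3, g4, g5, g6, g7, g8, g9⟩ := hSm _ h1
    refine mv_mem (hf1m p hp) ?_ ?_
    · rw [hf1l]; exact h3.trans g6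
    · have e1 := mv_CS (i := is p.1) (h3.trans g5) (is p.1)
      rw [if_neg g8, if_pos rfl] at e1
      rw [hb_eq]
      rw [hb_eq] at g7
      have e2 : CS (f1 p) (is p.1) = CS (mv k (jk p.1) (is p.1) p.2 p.1) (is p.1) := rfl
      omega
  -- injectivity
  have hi1 : ∀ p ∈ A, ∀ p' ∈ A, f1 p = f1 p' → tau p = tau p' → p = p' := by
    intro p hp p' hp' he ht
    obtain ⟨h1, h2, h3⟩ := hAm p hp
    obtain ⟨g1, g2, g3, g4, g5, g6, g7, g8, g9⟩ := hSm _ h1
    obtain ⟨h1', h2', h3'⟩ := hAm p' hp'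
    obtain ⟨g1', g2', g3', g4', g5', g6', g7', g8', g9'⟩ := hSm _ h1'
    rw [htau] at ht
    simp only [Prod.mk.injEq] at ht
    obtain ⟨t1, t2, t3⟩ := ht
    have e1 := mv_CS (i := is p.1) (h3.trans g5) (jk p.1)
    have e1' := mv_CS (i := is p'.1) (h3'.trans g5') (jk p'.1)
    rw [if_pos rfl, if_neg (Ne.symm g8)] at e1
    rw [if_pos rfl, if_neg (Ne.symm g8')] at e1'
    have e2 : CS (mv k (jk p.1) (is p.1) p.2 p.1) (jk p.1) =
        CS (mv k (jk p'.1) (is p'.1) p'.2 p'.1) (jk p'.1) := by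
      have : CS (f1 p) (jk p.1) = CS (f1 p') (jk p'.1) := by rw [he, t1]
      exact this
    have c1 := CS_le g1 (jk p.1)
    have c1' := CS_le g1' (jk p'.1)
    rw [hb_eq] at g2 g2'
    have e3 : c (jk p.1) = c (jk p'.1) := by rw [t1]
    have ea : p.2 = p'.2 := by omega
    have eX : p.1 = p'.1 := by
      apply mv_inj (k := k) (j := jk p.1) (i := is p.1) (a := p.2) (h3.trans g5)
      · rw [t1, ea]; exact h3'.trans g5'
      · have : f1 p = f1 p' := he
        rw [hf1] at this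
        simp only at this
        rw [this, t1, t3, ea]
    exact Sigma.ext eX (heq_of_eq ea)
  have hi2 : ∀ p ∈ A, ∀ p' ∈ A, f2 p = f2 p' → tau p = tau p' → p = p' := by
    intro p hp p' hp' he ht
    obtain ⟨h1, h2, h3⟩ := hAm p hp
    obtain ⟨g1, g2, g3, g4, g5, g6, g7, g8, g9⟩ := hSm _ h1
    obtain ⟨h1', h2', h3'⟩ := hAm p' hp'
    obtain ⟨g1', g2', g3', g4', g5', g6', g7', g8', g9'⟩ := hSm _ h1'
    rw [htau] at ht
    simp only [Prod.mk.injEq] at ht
    obtain ⟨t1, t2, t3⟩ := ht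
    have e1 := mv_CS (i := is p.1) (h3.trans g6) (jl p.1)
    have e1' := mv_CS (i := is p'.1) (h3'.trans g6') (jl p'.1)
    rw [if_pos rfl, if_neg (Ne.symm g9)] at e1
    rw [if_pos rfl, if_neg (Ne.symm g9')] at e1'
    have e2 : CS (mv l (jl p.1) (is p.1) p.2 p.1) (jl p.1) =
        CS (mv l (jl p'.1) (is p'.1) p'.2 p'.1) (jl p'.1) := by
      have : CS (f2 p) (jl p.1) = CS (f2 p') (jl p'.1) := by rw [he, t2]
      exact this
    have c1 := CS_le g1 (jl p.1)
    have c1' := CS_le g1' (jl p'.1)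
    rw [hb_eq] at g3 g3'
    have e3 : c (jl p.1) = c (jl p'.1) := by rw [t2]
    have ea : p.2 = p'.2 := by omega
    have eX : p.1 = p'.1 := by
      apply mv_inj (k := l) (j := jl p.1) (i := is p.1) (a := p.2) (h3.trans g6)
      · rw [t2, ea]; exact h3'.trans g6'
      · have : f2 p = f2 p' := he
        rw [hf2] at this
        simp only at this
        rw [this, t2, t3, ea]
    exact Sigma.ext eX (heq_of_eq ea)
  have hi3 : ∀ p ∈ A, ∀ p' ∈ A, f3 p = f3 p' → tau p = tau p' → p = p' := by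
    intro p hp p' hp' he ht
    obtain ⟨h1, h2, h3⟩ := hAm p hp
    obtain ⟨g1, g2, g3, g4, g5, g6, g7, g8, g9⟩ := hSm _ h1
    obtain ⟨h1', h2', h3'⟩ := hAm p' hp'
    obtain ⟨g1', g2', g3', g4', g5', g6', g7', g8', g9'⟩ := hSm _ h1'
    have ht0 := ht
    rw [htau] at ht
    simp only [Prod.mk.injEq] at ht
    obtain ⟨t1, t2, t3⟩ := ht
    have e1 : CS (f1 p) (jk p.1) + p.2 = CS p.1 (jk p.1) := by
      have := mv_CS (i := is p.1) (h3.trans g5) (jk p.1)
      rw [if_pos rfl, if_neg (Ne.symm g8)] at this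
      exact this
    have e1' : CS (f1 p') (jk p'.1) + p'.2 = CS p'.1 (jk p'.1) := by
      have := mv_CS (i := is p'.1) (h3'.trans g5') (jk p'.1)
      rw [if_pos rfl, if_neg (Ne.symm g8')] at this
      exact this
    have hle : p.2 ≤ f1 p l (jl p.1) := by rw [hf1l]; exact h3.trans g6
    have hle' : p'.2 ≤ f1 p' l (jl p'.1) := by rw [hf1l]; exact h3'.trans g6'
    have e2 : CS (f3 p) (jk p.1) + (if jk p.1 = jl p.1 then p.2 else 0) =
        CS (f1 p) (jk p.1) := by
      have := mv_CS (i := is p.1) hle (jk p.1)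
      rw [if_neg (Ne.symm g8)] at this
      exact this
    have e2' : CS (f3 p') (jk p'.1) + (if jk p'.1 = jl p'.1 then p'.2 else 0) =
        CS (f1 p') (jk p'.1) := by
      have := mv_CS (i := is p'.1) hle' (jk p'.1)
      rw [if_neg (Ne.symm g8')] at this
      exact this
    have e3 : CS (f3 p) (jk p.1) = CS (f3 p') (jk p'.1) := by rw [he, t1]
    have c1 := CS_le g1 (jk p.1)
    have c1' := CS_le g1' (jk p'.1)
    rw [hb_eq] at g2 g2'
    have e4 : c (jk p.1) = c (jk p'.1) := by rw [t1]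
    have ea : p.2 = p'.2 := by
      by_cases hj : jk p.1 = jl p.1
      · have hj' : jk p'.1 = jl p'.1 := by rw [← t1, ← t2]; exact hj
        rw [if_pos hj] at e2
        rw [if_pos hj'] at e2'
        omega
      · have hj' : jk p'.1 ≠ jl p'.1 := by rw [← t1, ← t2]; exact hj
        rw [if_neg hj] at e2
        rw [if_neg hj'] at e2'
        omega
    have e5 : f1 p = f1 p' := by
      apply mv_inj (k := l) (j := jl p.1) (i := is p.1) (a := p.2) hle
      · rw [t2, ea]; exact hle'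
      · have : f3 p = f3 p' := he
        rw [hf3] at this
        simp only at this
        rw [this, t2, t3, ea]
    exact hi1 p hp p' hp' e5 ht0
  -- the function
  set T : ((Σ _ : (ι → κ → ℕ), ℕ) → (ι → κ → ℕ)) → (ι → κ → ℕ) → ℝ :=
    fun f Y => ∑ p ∈ A, if f p = Y then w p else 0 with hT
  have hT0 : ∀ Y, T (fun p => p.1) Y = if Y ∈ S then psi Y else 0 := by
    intro Y
    rw [hT]
    simp only
    rw [hA, sum_sigma]
    have h1 : ∀ X ∈ S, (∑ a ∈ Icc 1 (ell X), if X = Y then w ⟨X, a⟩ else 0) =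
        if X = Y then psi X else 0 := by
      intro X hX
      obtain ⟨g1, g2, g3, g4, g5, g6, g7, g8, g9⟩ := hSm _ hX
      split_ifs with h
      · rw [hw]
        simp only
        rw [sum_const, Nat.card_Icc, nsmul_eq_mul]
        have : (ell X : ℝ) ≠ 0 := by
          have : (0 : ℝ) < ell X := by exact_mod_cast g4
          exact this.ne'
        rw [Nat.add_sub_cancel]
        field_simp
      · exact sum_const_zero
    rw [sum_congr rfl h1, sum_ite_eq']
  refine ⟨fun Y => T (fun p => p.1) Y - T f1 Y - T f2 Y + T f3 Y, ?_, ?_, ?_⟩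
  · -- k-fibres
    intro X0 _
    set Fib := (Om r c).filter (fun Y => ∀ i, i ≠ k → Y i = X0 i) with hFib
    have hTs : ∀ f : (Σ _ : (ι → κ → ℕ), ℕ) → (ι → κ → ℕ),
        ∑ Y ∈ Fib, T f Y = ∑ p ∈ A, if f p ∈ Fib then w p else 0 := by
      intro f
      rw [hT]
      simp only
      rw [sum_comm]
      refine sum_congr rfl fun p _ => ?_
      rw [sum_ite_eq]
    rw [sum_add_distrib, sum_sub_distrib, sum_sub_distrib, hTs, hTs, hTs, hTs]
    have e1 : (∑ p ∈ A, if p.1 ∈ Fib then w p else 0) = ∑ p ∈ A, if f1 p ∈ Fib then w p else 0 := by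
      refine sum_congr rfl fun p hp => ?_
      have hp1 := (hSm _ (hAm p hp).1).1
      have : p.1 ∈ Fib ↔ f1 p ∈ Fib := by
        rw [hFib, mem_filter, mem_filter]
        constructor
        · rintro ⟨-, h⟩
          refine ⟨hf1m p hp, fun i hi => ?_⟩
          rw [← h i hi]; exact mv_other hi
        · rintro ⟨-, h⟩
          refine ⟨hp1, fun i hi => ?_⟩
          rw [← h i hi]; exact (mv_other hi).symm
      simp only [this]
    have e2 : (∑ p ∈ A, if f2 p ∈ Fib then w p else 0) = ∑ p ∈ A, if f3 p ∈ Fib then w p else 0 := by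
      refine sum_congr rfl fun p hp => ?_
      have key : ∀ i, i ≠ k → f2 p i = f3 p i := by
        intro i hi
        by_cases hil : i = l
        · subst hil
          have a1 : f2 p i = rm (p.1 i) (jl p.1) (is p.1) p.2 := mv_self
          have a2 : f3 p i = rm (f1 p i) (jl p.1) (is p.1) p.2 := mv_self
          rw [a1, a2, hf1l]
        · have a1 : f2 p i = p.1 i := mv_other hil
          have a2 : f3 p i = f1 p i := mv_other hil
          have a3 : f1 p i = p.1 i := mv_other hi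
          rw [a1, a2, a3]
      have : f2 p ∈ Fib ↔ f3 p ∈ Fib := by
        rw [hFib, mem_filter, mem_filter]
        constructor
        · rintro ⟨-, h⟩
          exact ⟨hf3m p hp, fun i hi => by rw [← key i hi]; exact h i hi⟩
        · rintro ⟨-, h⟩
          exact ⟨hf2m p hp, fun i hi => by rw [key i hi]; exact h i hi⟩
      simp only [this]
    rw [e1, e2]; ring
  · -- l-fibres
    intro X0 _
    set Fib := (Om r c).filter (fun Y => ∀ i, i ≠ l → Y i = X0 i) with hFib
    have hTs : ∀ f : (Σ _ : (ι → κ → ℕ), ℕ) → (ι → κ → ℕ),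
        ∑ Y ∈ Fib, T f Y = ∑ p ∈ A, if f p ∈ Fib then w p else 0 := by
      intro f
      rw [hT]
      simp only
      rw [sum_comm]
      refine sum_congr rfl fun p _ => ?_
      rw [sum_ite_eq]
    rw [sum_add_distrib, sum_sub_distrib, sum_sub_distrib, hTs, hTs, hTs, hTs]
    have e1 : (∑ p ∈ A, if p.1 ∈ Fib then w p else 0) = ∑ p ∈ A, if f2 p ∈ Fib then w p else 0 := by
      refine sum_congr rfl fun p hp => ?_
      have hp1 := (hSm _ (hAm p hp).1).1
      have : p.1 ∈ Fib ↔ f2 p ∈ Fib := by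
        rw [hFib, mem_filter, mem_filter]
        constructor
        · rintro ⟨-, h⟩
          refine ⟨hf2m p hp, fun i hi => ?_⟩
          rw [← h i hi]; exact mv_other hi
        · rintro ⟨-, h⟩
          refine ⟨hp1, fun i hi => ?_⟩
          rw [← h i hi]; exact (mv_other hi).symm
      simp only [this]
    have e2 : (∑ p ∈ A, if f1 p ∈ Fib then w p else 0) = ∑ p ∈ A, if f3 p ∈ Fib then w p else 0 := by
      refine sum_congr rfl fun p hp => ?_
      have key : ∀ i, i ≠ l → f3 p i = f1 p i := fun i hi => mv_other hi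
      have : f1 p ∈ Fib ↔ f3 p ∈ Fib := by
        rw [hFib, mem_filter, mem_filter]
        constructor
        · rintro ⟨-, h⟩
          exact ⟨hf3m p hp, fun i hi => by rw [key i hi]; exact h i hi⟩
        · rintro ⟨-, h⟩
          exact ⟨hf1m p hp, fun i hi => by rw [← key i hi]; exact h i hi⟩
      simp only [this]
    rw [e1, e2]; ring
  · -- the bound
    set n : ℝ := (Fintype.card κ : ℝ) with hn
    have hn1 : 1 ≤ n := by
      rw [hn]
      have : 0 < Fintype.card κ := Fintype.card_pos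
      exact_mod_cast this
    set RR : ℝ := ∑ X ∈ Om r c, psi X ^ 2 * (1 / (X k (jk X) : ℝ) + 1 / (X l (jl X) : ℝ)) with hRR
    have hRR0 : ∀ X, 0 ≤ psi X ^ 2 * (1 / (X k (jk X) : ℝ) + 1 / (X l (jl X) : ℝ)) :=
      fun X => by positivity
    have hw2 : ∑ p ∈ A, w p ^ 2 ≤ 3 * n * RR := by
      rw [hA, sum_sigma]
      have h1 : ∀ X ∈ S, ∑ a ∈ Icc 1 (ell X), w ⟨X, a⟩ ^ 2 ≤
          3 * n * (psi X ^ 2 * (1 / (X k (jk X) : ℝ) + 1 / (X l (jl X) : ℝ))) := by
        intro X hX
        obtain ⟨g1, g2, g3, g4, g5, g6, g7, g8, g9⟩ := hSm _ hX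
        have gl : (0 : ℝ) < ell X := by exact_mod_cast g4
        have hs : ∑ a ∈ Icc 1 (ell X), w ⟨X, a⟩ ^ 2 = psi X ^ 2 * (1 / ell X) := by
          rw [hw]
          simp only
          rw [sum_const, Nat.card_Icc, nsmul_eq_mul, Nat.add_sub_cancel]
          field_simp
        rw [hs]
        have hk0 : (0 : ℝ) < X k (jk X) := by exact_mod_cast (show 0 < X k (jk X) by omega)
        have hl0 : (0 : ℝ) < X l (jl X) := by exact_mod_cast (show 0 < X l (jl X) by omega)
        have hinv : 1 / (ell X : ℝ) ≤ 3 * n * (1 / (X k (jk X) : ℝ) + 1 / (X l (jl X) : ℝ)) := by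
          have hA1 : 0 < 1 / (X k (jk X) : ℝ) := by positivity
          have hA2 : 0 < 1 / (X l (jl X) : ℝ) := by positivity
          rcases le_total (min (X k (jk X)) (X l (jl X))) (hb c X (is X) / 2) with hc | hc
          · have e0 : ell X = min (X k (jk X)) (X l (jl X)) := min_eq_left hc
            rcases le_total (X k (jk X)) (X l (jl X)) with hd | hd
            · have e1 : ell X = X k (jk X) := e0.trans (min_eq_left hd)
              rw [e1]; nlinarith
            · have e1 : ell X = X l (jl X) := e0.trans (min_eq_right hd)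
              rw [e1]; nlinarith
          · have e0 : ell X = hb c X (is X) / 2 := min_eq_right hc
            have hbig := hub_big k hhub g1 (jk X) (his X)
            have h3 : hb c X (is X) ≤ 3 * ell X := by
              rw [e0]; omega
            have h4 : X k (jk X) ≤ Fintype.card κ * (3 * ell X) := by
              have : Fintype.card κ * hb c X (is X) ≤ Fintype.card κ * (3 * ell X) :=
                Nat.mul_le_mul_left _ h3
              omega
            have h5 : (X k (jk X) : ℝ) ≤ n * (3 * ell X) := by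
              rw [hn]; exact_mod_cast h4
            have h6 : 1 / (ell X : ℝ) ≤ 3 * n * (1 / (X k (jk X) : ℝ)) := by
              rw [mul_one_div, div_le_div_iff₀ gl hk0]
              nlinarith
            nlinarith
        calc psi X ^ 2 * (1 / (ell X : ℝ)) ≤
            psi X ^ 2 * (3 * n * (1 / (X k (jk X) : ℝ) + 1 / (X l (jl X) : ℝ))) :=
              mul_le_mul_of_nonneg_left hinv (sq_nonneg _)
          _ = _ := by ring
      refine (sum_le_sum h1).trans ?_
      rw [← mul_sum]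
      apply mul_le_mul_of_nonneg_left _ (by positivity)
      rw [hRR]
      exact sum_le_sum_of_subset_of_nonneg (filter_subset _ _) fun X _ _ => hRR0 X
    have hcard : (Fintype.card (κ × κ × κ) : ℝ) = n ^ 3 := by
      rw [Fintype.card_prod, Fintype.card_prod, hn]
      push_cast; ring
    have hB : ∀ f : (Σ _ : (ι → κ → ℕ), ℕ) → (ι → κ → ℕ), (∀ p ∈ A, f p ∈ Om r c) →
        (∀ p ∈ A, ∀ p' ∈ A, f p = f p' → tau p = tau p' → p = p') →
        ∑ Y ∈ Om r c, T f Y ^ 2 ≤ n ^ 3 * (3 * n * RR) := by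
      intro f hfm hfi
      have h1 := sparse A (Om r c) f tau w hfm hfi
      rw [hcard] at h1
      exact h1.trans (mul_le_mul_of_nonneg_left hw2 (by positivity))
    have hD : ∑ Y ∈ Om r c, (T (fun p => p.1) Y - psi Y) ^ 2 ≤ n * RR := by
      rw [hRR, mul_sum]
      refine sum_le_sum fun Y hY => ?_
      rw [hT0]
      by_cases hYS : Y ∈ S
      · rw [if_pos hYS, sub_self]
        have := hRR0 Y
        have : 0 ≤ n * (psi Y ^ 2 * (1 / (Y k (jk Y) : ℝ) + 1 / (Y l (jl Y) : ℝ))) := by positivity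
        simpa using this
      · rw [if_neg hYS]
        by_cases hp0 : psi Y = 0
        · rw [hp0]; simp
        · have h2 : ¬ (2 ≤ hb c Y (is Y)) := by
            intro h; apply hYS; rw [hS, mem_filter]; exact ⟨hY, hp0, h⟩
          have hbig := hub_big k hhub hY (jk Y) (his Y)
          have h3 : Y k (jk Y) ≤ Fintype.card κ := by
            have : Fintype.card κ * hb c Y (is Y) ≤ Fintype.card κ * 1 :=
              Nat.mul_le_mul_left _ (by omega)
            omega
          have h4 : (Y k (jk Y) : ℝ) ≤ n := by rw [hn]; exact_mod_cast h3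
          obtain ⟨-, -, h6, -⟩ := hpsi Y hY hp0
          have hk0 : (0 : ℝ) < Y k (jk Y) := by exact_mod_cast h6
          have h5 : 1 ≤ n * (1 / (Y k (jk Y) : ℝ)) := by
            rw [mul_one_div, le_div_iff₀ hk0]; linarith
          have h7 : 0 ≤ n * (1 / (Y l (jl Y) : ℝ)) := by positivity
          have h8 : 1 ≤ n * (1 / (Y k (jk Y) : ℝ) + 1 / (Y l (jl Y) : ℝ)) := by
            rw [mul_add]; linarith
          have h9 := mul_le_mul_of_nonneg_left h8 (sq_nonneg (psi Y))
          calc (0 - psi Y) ^ 2 = psi Y ^ 2 * 1 := by ring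
            _ ≤ psi Y ^ 2 * (n * (1 / (Y k (jk Y) : ℝ) + 1 / (Y l (jl Y) : ℝ))) := h9
            _ = _ := by ring
    have hRRnn : 0 ≤ RR := sum_nonneg fun X _ => hRR0 X
    have hfin : ∑ X ∈ Om r c, (T (fun p => p.1) X - T f1 X - T f2 X + T f3 X - psi X) ^ 2 ≤
        ∑ X ∈ Om r c, (4 * (T (fun p => p.1) X - psi X) ^ 2 + 4 * T f1 X ^ 2 + 4 * T f2 X ^ 2
          + 4 * T f3 X ^ 2) := by
      refine sum_le_sum fun X _ => ?_
      nlinarith [sq_nonneg ((T (fun p => p.1) X - psi X) + T f1 X),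
        sq_nonneg ((T (fun p => p.1) X - psi X) + T f2 X),
        sq_nonneg ((T (fun p => p.1) X - psi X) - T f3 X),
        sq_nonneg (T f1 X - T f2 X), sq_nonneg (T f1 X + T f3 X), sq_nonneg (T f2 X + T f3 X)]
    refine hfin.trans ?_
    rw [sum_add_distrib, sum_add_distrib, sum_add_distrib, ← mul_sum, ← mul_sum, ← mul_sum,
      ← mul_sum]
    have b1 := hB f1 hf1m hi1
    have b2 := hB f2 hf2m hi2
    have b3 := hB f3 hf3m hi3
    have hn4 : n ≤ n ^ 4 := by
      have : n * 1 ≤ n * n ^ 3 := mul_le_mul_of_nonneg_left (one_le_pow₀ hn1) (by linarith)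
      calc n = n * 1 := by ring
        _ ≤ n * n ^ 3 := this
        _ = n ^ 4 := by ring
    have hn4R : n * RR ≤ n ^ 4 * RR := mul_le_mul_of_nonneg_right hn4 hRRnn
    have hpos : 0 ≤ n ^ 4 * RR := by positivity
    nlinarith

theorem thm : StmtSMEAR.{u, v} := by
  intro ι _ _ κ _ _ r c k l psi jk jl hkl hhub hpsi
  exact thmk ι κ r c k l psi jk jl hkl (hhub k) hpsi

end SMEAR
end Vale.P328U
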