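import Vale.Agent.P328.U.Defs2

/-! # P328: the north-west corner table (helper28)

An explicit element of `Tables r c`: the entry `(i, j)` is the length of the intersection of the
intervals `[pre r i, pre r (i+1))` and `[pre c j, pre c (j+1))`. -/

namespace Vale.P328B.NW
open Finset BigOperators Vale.P328U

/-- prefix sums `a 0 + ... + a (i-1)` -/
def pre {m : ℕ} (a : Fin m → ℕ) (i : ℕ) : ℕ := ∑ k : Fin m, if (k : ℕ) < i then a k else 0

/-- the north-west corner table -/
def nw {m n : ℕ} (r : Fin m → ℕ) (c : Fin n → ℕ) : Fin m → Fin n → ℕ :=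
  fun i j => min (pre r ((i : ℕ) + 1)) (pre c ((j : ℕ) + 1)) - max (pre r i) (pre c j)

theorem pre_zero {m : ℕ} (a : Fin m → ℕ) : pre a 0 = 0 := by
  unfold pre
  simp

theorem pre_top {m : ℕ} (a : Fin m → ℕ) : pre a m = ∑ k, a k := by
  unfold pre
  refine Finset.sum_congr rfl fun k _ => ?_
  rw [if_pos k.2]

theorem pre_succ {m : ℕ} (a : Fin m → ℕ) (i : Fin m) :
    pre a ((i : ℕ) + 1) = pre a i + a i := by
  unfold pre
  have h : ∀ k : Fin m, (if (k : ℕ) < (i : ℕ) + 1 then a k else 0) =
      (if (k : ℕ) < (i : ℕ) then a k else 0) + (if k = i then a k else 0) := by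
    intro k
    by_cases h1 : (k : ℕ) < (i : ℕ)
    · have h2 : k ≠ i := by
        rintro rfl
        exact lt_irrefl _ h1
      rw [if_pos (by omega), if_pos h1, if_neg h2, add_zero]
    · by_cases h2 : k = i
      · subst h2
        rw [if_pos (by omega), if_neg h1, if_pos rfl, zero_add]
      · have h3 : ¬ ((k : ℕ) < (i : ℕ) + 1) := by
          intro h4
          apply h2
          apply Fin.ext
          omega
        rw [if_neg h3, if_neg h1, if_neg h2]
  rw [Finset.sum_congr rfl fun k _ => h k, Finset.sum_add_distrib]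
  congr 1
  rw [Finset.sum_ite_eq' Finset.univ i]
  simp

theorem pre_mono {m : ℕ} (a : Fin m → ℕ) {i j : ℕ} (h : i ≤ j) : pre a i ≤ pre a j := by
  unfold pre
  refine Finset.sum_le_sum fun k _ => ?_
  split_ifs with h1 h2
  · exact le_rfl
  · omega
  · exact Nat.zero_le _
  · exact le_rfl

/-- telescoping: the lengths of the pieces of `[A, B)` cut by the prefix sums of `c` -/
theorem tele {n : ℕ} (c : Fin n → ℕ) (A B : ℕ) (hAB : A ≤ B) (hB : B ≤ ∑ j, c j) :
    ∑ j : Fin n, (min B (pre c ((j : ℕ) + 1)) - max A (pre c j)) = B - A := by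
  have key : ∀ t : ℕ, t ≤ n →
      ∑ j : Fin n, (if (j : ℕ) < t then (min B (pre c ((j : ℕ) + 1)) - max A (pre c j)) else 0) =
        min B (pre c t) - A := by
    intro t
    induction t with
    | zero =>
      intro _
      rw [pre_zero]
      simp
    | succ t ih =>
      intro ht
      have ih' := ih (by omega)
      have htn : t < n := by omega
      have h : ∀ j : Fin n, (if (j : ℕ) < t + 1 then
          (min B (pre c ((j : ℕ) + 1)) - max A (pre c j)) else 0) =
          (if (j : ℕ) < t then (min B (pre c ((j : ℕ) + 1)) - max A (pre c j)) else 0) +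
          (if j = ⟨t, htn⟩ then (min B (pre c ((j : ℕ) + 1)) - max A (pre c j)) else 0) := by
        intro j
        by_cases h1 : (j : ℕ) < t
        · have h2 : j ≠ ⟨t, htn⟩ := by
            intro h3
            rw [h3] at h1
            exact lt_irrefl _ h1
          rw [if_pos (by omega), if_pos h1, if_neg h2, add_zero]
        · by_cases h2 : j = ⟨t, htn⟩
          · rw [if_pos (by rw [h2]; exact Nat.lt_succ_self t), if_neg h1, if_pos h2, zero_add]
          · have h3 : ¬ ((j : ℕ) < t + 1) := by
              intro h4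
              apply h2
              apply Fin.ext
              change (j : ℕ) = t
              omega
            rw [if_neg h3, if_neg h1, if_neg h2]
      rw [Finset.sum_congr rfl fun j _ => h j, Finset.sum_add_distrib, ih',
        Finset.sum_ite_eq' Finset.univ (⟨t, htn⟩ : Fin n)]
      simp only [Finset.mem_univ, if_true]
      have hm : pre c t ≤ pre c (t + 1) := pre_mono c (Nat.le_succ t)
      omega
  have h2 := key n le_rfl
  have h3 : ∑ j : Fin n, (if (j : ℕ) < n then
      (min B (pre c ((j : ℕ) + 1)) - max A (pre c j)) else 0) =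
      ∑ j : Fin n, (min B (pre c ((j : ℕ) + 1)) - max A (pre c j)) :=
    Finset.sum_congr rfl fun j _ => if_pos j.2
  rw [h3, pre_top, min_eq_left hB] at h2
  exact h2

theorem nw_mem {m n : ℕ} (r : Fin m → ℕ) (c : Fin n → ℕ) (h : ∑ i, r i = ∑ j, c j) :
    nw r c ∈ Tables r c := by
  have hrow : ∀ i, ∑ j, nw r c i j = r i := by
    intro i
    have h1 : pre r ((i : ℕ) + 1) ≤ ∑ j, c j := by
      rw [← h, ← pre_top r]
      exact pre_mono r (by omega)
    have h2 := tele c (pre r i) (pre r ((i : ℕ) + 1)) (pre_mono r (Nat.le_succ _)) h1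
    unfold nw
    rw [h2, pre_succ]
    omega
  have hcol : ∀ j, ∑ i, nw r c i j = c j := by
    intro j
    have h1 : pre c ((j : ℕ) + 1) ≤ ∑ i, r i := by
      rw [h, ← pre_top c]
      exact pre_mono c (by omega)
    have h2 := tele r (pre c j) (pre c ((j : ℕ) + 1)) (pre_mono c (Nat.le_succ _)) h1
    unfold nw
    have h3 : ∀ i : Fin m, min (pre r ((i : ℕ) + 1)) (pre c ((j : ℕ) + 1)) -
        max (pre r i) (pre c j) = min (pre c ((j : ℕ) + 1)) (pre r ((i : ℕ) + 1)) -
        max (pre c j) (pre r i) := by
      intro i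
      rw [min_comm, max_comm]
    rw [Finset.sum_congr rfl fun i _ => h3 i, h2, pre_succ]
    omega
  unfold Tables
  rw [Finset.mem_filter, Fintype.mem_piFinset]
  refine ⟨fun i => ?_, hrow, hcol⟩
  rw [Fintype.mem_piFinset]
  intro j
  rw [Finset.mem_range, Nat.lt_succ_iff, ← hrow i]
  exact Finset.single_le_sum (f := fun j => nw r c i j) (fun _ _ => Nat.zero_le _)
    (Finset.mem_univ j)

end Vale.P328B.NW
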