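import Vale.Agent.P328.U.Defs2

/-!
# P328: from random bits to uniform choices

A table valued procedure driven by `n` independent uniform elements of a finite set `S` is driven
by random bits instead: each choice is `f (number with q random binary digits)`, where `f : ℕ → S`
is periodic with period `M = |S|` and bijective on a period.  The law of the output changes by at
most `n * M / 2 ^ q` (sum of absolute values).
-/

namespace Vale.P328B.BITS
open Finset BigOperators Vale.P328U

/-- the number with binary digits `ω 0, ω 1, …` (least significant digit first) -/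
def bval {q : ℕ} (ω : Fin q → Bool) : ℕ := Nat.ofBits ω

lemma bval_lt {q : ℕ} (ω : Fin q → Bool) : bval ω < 2 ^ q := Nat.ofBits_lt_two_pow ω

lemma bval_inj (q : ℕ) : Function.Injective (bval (q := q)) := by
  intro a b h
  funext i
  have h1 := Nat.testBit_ofBits_lt a i.1 i.2
  have h2 := Nat.testBit_ofBits_lt b i.1 i.2
  unfold bval at h
  rw [h] at h1
  rw [← h1, ← h2]

lemma image_bval (q : ℕ) : (univ : Finset (Fin q → Bool)).image bval = range (2 ^ q) := by
  apply Finset.eq_of_subset_of_card_le
  · intro v hv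
    rw [mem_image] at hv
    obtain ⟨ω, _, rfl⟩ := hv
    exact mem_range.2 (bval_lt ω)
  · rw [card_range, Finset.card_image_of_injective _ (bval_inj q), Finset.card_univ]
    simp

/-- `f` is periodic with period `M` and bijective on `{0, …, M - 1}` -/
structure IsDecode {S : Type} (M : ℕ) (f : ℕ → S) : Prop where
  pos : 0 < M
  per : ∀ v, f (v + M) = f v
  inj : ∀ v < M, ∀ w < M, f v = f w → v = w
  surj : ∀ s, ∃ v < M, f v = s

lemma IsDecode.mod {S : Type} {M : ℕ} {f : ℕ → S} (h : IsDecode M f) (v : ℕ) :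
    f v = f (v % M) := by
  have h1 : ∀ k w, f (w + k * M) = f w := by
    intro k
    induction k with
    | zero => intro w; simp
    | succ k ih =>
      intro w
      have : w + (k + 1) * M = (w + k * M) + M := by ring
      rw [this, h.per, ih]
  conv_lhs => rw [← Nat.mod_add_div v M, mul_comm M (v / M)]
  exact h1 _ _

lemma IsDecode.card {S : Type} [Fintype S] {M : ℕ} {f : ℕ → S} (h : IsDecode M f) :
    Fintype.card S = M := by
  have h1 : Function.Bijective (fun i : Fin M => f i) := by
    constructor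
    · intro a b hab
      exact Fin.ext (h.inj a a.2 b b.2 hab)
    · intro s
      obtain ⟨v, hv, rfl⟩ := h.surj s
      exact ⟨⟨v, hv⟩, rfl⟩
  have := Fintype.card_of_bijective h1
  rw [← this, Fintype.card_fin]

/-- number of `v < Q` with `f v = s` -/
lemma IsDecode.count {S : Type} [DecidableEq S] {M : ℕ} {f : ℕ → S} (h : IsDecode M f) (s : S)
    (Q : ℕ) : |(((range Q).filter fun v => f v = s).card : ℝ) - (Q : ℝ) / M| ≤ 1 := by
  have hM : (0 : ℝ) < M := by exact_mod_cast h.pos
  obtain ⟨v₀, hv₀, hs⟩ := h.surj s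
  have h1 : (range Q).filter (fun v => f v = s) = (range Q).filter (fun v => v ≡ v₀ [MOD M]) := by
    apply Finset.filter_congr
    intro v _
    rw [h.mod v, ← hs]
    constructor
    · intro hv
      have := h.inj _ (Nat.mod_lt _ h.pos) _ hv₀ hv
      rw [Nat.ModEq, this, Nat.mod_eq_of_lt hv₀]
    · intro hv
      rw [Nat.ModEq, Nat.mod_eq_of_lt hv₀] at hv
      rw [hv]
  rw [h1]
  have h2 := Nat.count_modEq_card (b := Q) h.pos v₀
  rw [Nat.count_eq_card_filter_range] at h2
  rw [Nat.mod_eq_of_lt hv₀] at h2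
  have h3 : (Q : ℝ) / M = (Q / M : ℕ) + ((Q % M : ℕ) : ℝ) / M := by
    rw [div_eq_iff hM.ne', add_mul, div_mul_cancel₀ _ hM.ne']
    exact_mod_cast (Nat.div_add_mod' Q M).symm
  have h4 : ((Q % M : ℕ) : ℝ) / M ≤ 1 := by
    rw [div_le_one hM]
    exact_mod_cast (Nat.mod_lt Q h.pos).le
  have h5 : (0 : ℝ) ≤ ((Q % M : ℕ) : ℝ) / M := by positivity
  have h6 : (((range Q).filter fun v => v ≡ v₀ [MOD M]).card : ℝ)
      = (Q / M : ℕ) + if v₀ < Q % M then (1 : ℝ) else 0 := by
    rw [h2]
    push_cast
    split_ifs <;> simp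
  rw [h6, h3, abs_le]
  split_ifs <;> constructor <;> linarith

/-- law of one decoded choice -/
lemma IsDecode.law {S : Type} [Fintype S] [DecidableEq S] {M : ℕ} {f : ℕ → S} (h : IsDecode M f)
    (q : ℕ) : ∑ s : S, |((univ.filter fun ω : Fin q → Bool => f (bval ω) = s).card : ℝ) /
      (Fintype.card (Fin q → Bool) : ℝ) - 1 / (Fintype.card S : ℝ)| ≤ (M : ℝ) / 2 ^ q := by
  have hM : (0 : ℝ) < M := by exact_mod_cast h.pos
  have hc : (Fintype.card (Fin q → Bool) : ℝ) = 2 ^ q := by
    rw [Fintype.card_fun, Fintype.card_bool, Fintype.card_fin]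
    push_cast
    rfl
  have h1 : ∀ s : S, |((univ.filter fun ω : Fin q → Bool => f (bval ω) = s).card : ℝ) /
      (Fintype.card (Fin q → Bool) : ℝ) - 1 / (Fintype.card S : ℝ)| ≤ 1 / 2 ^ q := by
    intro s
    have e1 : (univ.filter fun ω : Fin q → Bool => f (bval ω) = s).card
        = ((range (2 ^ q)).filter fun v => f v = s).card := by
      rw [← image_bval, Finset.filter_image,
        Finset.card_image_of_injective _ (bval_inj q)]
    have h2 := h.count s (2 ^ q)
    rw [e1, hc, h.card]
    have e2 : (((range (2 ^ q)).filter fun v => f v = s).card : ℝ) / 2 ^ q - 1 / (M : ℝ)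
        = ((((range (2 ^ q)).filter fun v => f v = s).card : ℝ) - ((2 ^ q : ℕ) : ℝ) / M) / 2 ^ q := by
      push_cast
      field_simp
    rw [e2, abs_div, abs_of_pos (show (0 : ℝ) < 2 ^ q by positivity)]
    exact div_le_div_of_nonneg_right h2 (by positivity)
  calc _ ≤ ∑ s : S, 1 / (2 : ℝ) ^ q := Finset.sum_le_sum fun s _ => h1 s
    _ = (M : ℝ) / 2 ^ q := by
      rw [Finset.sum_const, Finset.card_univ, h.card, nsmul_eq_mul]
      ring

/-- law of `n` independent decoded choices -/
lemma prod_law {A S : Type} [Fintype A] [Nonempty A] [Fintype S] [Nonempty S] [DecidableEq S]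
    (d : A → S) (η : ℝ)
    (h : ∑ s : S, |((univ.filter fun a : A => d a = s).card : ℝ) / (Fintype.card A : ℝ)
      - 1 / (Fintype.card S : ℝ)| ≤ η) (n : ℕ) :
    ∑ s : Fin n → S, |((univ.filter fun a : Fin n → A => (fun i => d (a i)) = s).card : ℝ) /
      (Fintype.card (Fin n → A) : ℝ) - 1 / (Fintype.card (Fin n → S) : ℝ)| ≤ n * η := by
  have hA : (0 : ℝ) < Fintype.card A := by exact_mod_cast Fintype.card_pos
  have hS : (0 : ℝ) < Fintype.card S := by exact_mod_cast Fintype.card_pos
  have h0 : ∀ (n : ℕ) (s : Fin n → S),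
      ((univ.filter fun a : Fin n → A => (fun i => d (a i)) = s).card : ℝ) /
      (Fintype.card (Fin n → A) : ℝ) =
      ∏ i, (((univ.filter fun a : A => d a = s i).card : ℝ) / (Fintype.card A : ℝ)) := by
    intro n s
    have e1 : (univ.filter fun a : Fin n → A => (fun i => d (a i)) = s)
        = Fintype.piFinset fun i => univ.filter fun a : A => d a = s i := by
      ext a
      simp [Fintype.mem_piFinset, funext_iff]
    rw [e1, Fintype.card_piFinset, Fintype.card_fun, Fintype.card_fin, Finset.prod_div_distrib,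
      Finset.prod_const, Finset.card_univ, Fintype.card_fin]
    push_cast
    rfl
  have h0' : ∀ n : ℕ, 1 / (Fintype.card (Fin n → S) : ℝ) =
      ∏ _i : Fin n, (1 / (Fintype.card S : ℝ)) := by
    intro n
    rw [Finset.prod_const, Finset.card_univ, Fintype.card_fin, Fintype.card_fun,
      Fintype.card_fin, div_pow, one_pow]
    push_cast
    rfl
  have hone : ∑ s : S, ((univ.filter fun a : A => d a = s).card : ℝ) / (Fintype.card A : ℝ)
      = 1 := by
    rw [← Finset.sum_div, div_eq_one_iff_eq hA.ne']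
    have := Finset.card_eq_sum_card_fiberwise (s := (univ : Finset A)) (t := (univ : Finset S))
      (f := d) (fun _ _ => mem_coe.2 (mem_univ _))
    rw [Finset.card_univ] at this
    rw [this]
    push_cast
    rfl
  have hone' : ∑ _s : S, 1 / (Fintype.card S : ℝ) = 1 := by
    rw [Finset.sum_const, Finset.card_univ, nsmul_eq_mul]
    field_simp
  induction n with
  | zero =>
    simp only [h0, h0']
    simp
  | succ n ih =>
    simp only [h0, h0'] at ih ⊢
    rw [← (Fin.consEquiv fun _ : Fin (n + 1) => S).sum_comp, Fintype.sum_prod_type]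
    simp only [Fin.prod_univ_succ, Fin.consEquiv_apply, Fin.cons_zero, Fin.cons_succ]
    set μ : S → ℝ := fun s => ((univ.filter fun a : A => d a = s).card : ℝ) / (Fintype.card A : ℝ)
      with hμ
    set ν : ℝ := 1 / (Fintype.card S : ℝ) with hν
    have hν0 : 0 ≤ ν := by positivity
    have hμ0 : ∀ s, 0 ≤ μ s := fun s => by
      rw [hμ]
      positivity
    have hb : ∀ (x : S) (y : Fin n → S), |μ x * ∏ i, μ (y i) - ν * ∏ _i : Fin n, ν|
        ≤ μ x * |∏ i, μ (y i) - ∏ _i : Fin n, ν| + |μ x - ν| * ∏ _i : Fin n, ν := by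
      intro x y
      have : μ x * ∏ i, μ (y i) - ν * ∏ _i : Fin n, ν
          = μ x * (∏ i, μ (y i) - ∏ _i : Fin n, ν) + (μ x - ν) * ∏ _i : Fin n, ν := by ring
      rw [this]
      refine (abs_add_le _ _).trans ?_
      rw [abs_mul, abs_mul, abs_of_nonneg (hμ0 x),
        abs_of_nonneg (Finset.prod_nonneg fun _ _ => hν0)]
    have hprod : ∑ _y : Fin n → S, ∏ _i : Fin n, ν = 1 := by
      rw [Finset.sum_const, Finset.prod_const, Finset.card_univ, Finset.card_univ,
        Fintype.card_fun, Fintype.card_fin, nsmul_eq_mul]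
      push_cast
      rw [← mul_pow, hν, mul_one_div, div_self hS.ne', one_pow]
    calc ∑ x : S, ∑ y : Fin n → S, |μ x * ∏ i, μ (y i) - ν * ∏ _i : Fin n, ν|
        ≤ ∑ x : S, ∑ y : Fin n → S,
          (μ x * |∏ i, μ (y i) - ∏ _i : Fin n, ν| + |μ x - ν| * ∏ _i : Fin n, ν) :=
          Finset.sum_le_sum fun x _ => Finset.sum_le_sum fun y _ => hb x y
      _ = (∑ x, μ x) * (∑ y : Fin n → S, |∏ i, μ (y i) - ∏ _i : Fin n, ν|)
          + (∑ x, |μ x - ν|) * ∑ _y : Fin n → S, ∏ _i : Fin n, ν := by
          simp only [Finset.sum_add_distrib, ← Finset.mul_sum, ← Finset.sum_mul]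
      _ ≤ 1 * (n * η) + η * 1 := by
          rw [hprod, hone]
          have := ih
          linarith
      _ = ((n + 1 : ℕ) : ℝ) * η := by
          push_cast
          ring

/-- the law of a function of `n` independent decoded choices -/
theorem lawOf_bits {m' n' : ℕ} {S : Type} [Fintype S] [Nonempty S] {M : ℕ} {f : ℕ → S}
    (h : IsDecode M f) (q n : ℕ) (out : (Fin n → S) → Fin m' → Fin n' → ℕ)
    (T : Finset (Fin m' → Fin n' → ℕ)) :
    ∑ X ∈ T, |lawOf (fun ω : Fin n → Fin q → Bool => out fun i => f (bval (ω i))) X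
      - lawOf out X| ≤ n * ((M : ℝ) / 2 ^ q) := by
  classical
  have h1 := prod_law (fun ω : Fin q → Bool => f (bval ω)) ((M : ℝ) / 2 ^ q) (h.law q) n
  refine le_trans ?_ h1
  set D : (Fin n → S) → ℝ := fun s =>
    ((univ.filter fun a : Fin n → Fin q → Bool => (fun i => f (bval (a i))) = s).card : ℝ) /
      (Fintype.card (Fin n → Fin q → Bool) : ℝ) - 1 / (Fintype.card (Fin n → S) : ℝ) with hD
  have h2 : ∀ X, lawOf (fun ω : Fin n → Fin q → Bool => out fun i => f (bval (ω i))) X
      - lawOf out X = ∑ s ∈ univ.filter (fun s => out s = X), D s := by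
    intro X
    rw [hD, Finset.sum_sub_distrib, ← Finset.sum_div, Finset.sum_const, nsmul_eq_mul,
      mul_one_div]
    unfold lawOf
    congr 2
    · have := Finset.card_eq_sum_card_fiberwise
        (s := univ.filter fun ω : Fin n → Fin q → Bool => out (fun i => f (bval (ω i))) = X)
        (t := univ.filter fun s : Fin n → S => out s = X)
        (f := fun ω => fun i => f (bval (ω i)))
        (fun ω hω => by
          rw [mem_coe, mem_filter] at hω ⊢
          exact ⟨mem_univ _, hω.2⟩)
      have h3 : ((univ.filter fun ω : Fin n → Fin q → Bool =>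
          out (fun i => f (bval (ω i))) = X).card : ℝ)
          = ∑ s ∈ univ.filter (fun s : Fin n → S => out s = X),
            ((univ.filter fun a : Fin n → Fin q → Bool =>
              (fun i => f (bval (a i))) = s).card : ℝ) := by
        rw [this]
        push_cast
        apply Finset.sum_congr rfl
        intro s hs
        congr 2
        rw [Finset.filter_filter]
        apply Finset.filter_congr
        intro ω _
        rw [mem_filter] at hs
        constructor
        · exact fun h => h.2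
        · intro h
          refine ⟨?_, h⟩
          rw [h]
          exact hs.2
      convert h3
  calc ∑ X ∈ T, |lawOf (fun ω : Fin n → Fin q → Bool => out fun i => f (bval (ω i))) X
      - lawOf out X| = ∑ X ∈ T, |∑ s ∈ univ.filter (fun s => out s = X), D s| :=
        Finset.sum_congr rfl fun X _ => by rw [h2]
    _ ≤ ∑ X ∈ T, ∑ s ∈ univ.filter (fun s => out s = X), |D s| :=
        Finset.sum_le_sum fun X _ => Finset.abs_sum_le_sum_abs _ _
    _ = ∑ s ∈ (univ : Finset (Fin n → S)).filter (fun s => out s ∈ T), |D s| := by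
        rw [← Finset.sum_fiberwise_of_maps_to (s := univ.filter fun s => out s ∈ T) (t := T)
          (g := out) (fun s hs => (mem_filter.1 hs).2)]
        apply Finset.sum_congr rfl
        intro X hX
        apply Finset.sum_congr _ fun _ _ => rfl
        ext s
        simp only [mem_filter, mem_univ, true_and]
        constructor
        · intro h
          exact ⟨h ▸ hX, h⟩
        · exact fun h => h.2
    _ ≤ ∑ s : Fin n → S, |D s| := by
        apply Finset.sum_le_sum_of_subset_of_nonneg (Finset.filter_subset _ _)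
        intro _ _ _
        exact abs_nonneg _

/-! ## explicit decoding -/

/-- two independent choices from one number -/
def pairD {S T : Type} (M : ℕ) (f : ℕ → S) (g : ℕ → T) (v : ℕ) : S × T := (f v, g (v / M))

lemma IsDecode.pair {S T : Type} {M N : ℕ} {f : ℕ → S} {g : ℕ → T} (hf : IsDecode M f)
    (hg : IsDecode N g) : IsDecode (M * N) (pairD M f g) := by
  refine ⟨Nat.mul_pos hf.pos hg.pos, ?_, ?_, ?_⟩
  · intro v
    unfold pairD
    have h1 : f (v + M * N) = f v := by
      rw [hf.mod, hf.mod v, Nat.add_mul_mod_self_left]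
    have h2 : (v + M * N) / M = v / M + N := by
      rw [Nat.add_mul_div_left _ _ hf.pos]
    rw [h1, h2, hg.per]
  · intro v hv w hw h
    unfold pairD at h
    rw [Prod.mk.injEq] at h
    obtain ⟨h1, h2⟩ := h
    rw [hf.mod v, hf.mod w] at h1
    have h3 := hf.inj _ (Nat.mod_lt _ hf.pos) _ (Nat.mod_lt _ hf.pos) h1
    have h4 := hg.inj _ (Nat.div_lt_of_lt_mul hv) _ (Nat.div_lt_of_lt_mul hw) h2
    rw [← Nat.mod_add_div v M, ← Nat.mod_add_div w M, h3, h4]
  · rintro ⟨s, t⟩
    obtain ⟨v, hv, rfl⟩ := hf.surj s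
    obtain ⟨w, hw, rfl⟩ := hg.surj t
    refine ⟨v + M * w, ?_, ?_⟩
    · calc v + M * w < M + M * w := by omega
        _ = M * (w + 1) := by ring
        _ ≤ M * N := Nat.mul_le_mul_left _ hw
    · unfold pairD
      rw [hf.mod, Nat.add_mul_mod_self_left, Nat.mod_eq_of_lt hv,
        Nat.add_mul_div_left _ _ hf.pos, Nat.div_eq_of_lt hv, zero_add]

/-- residue class -/
def finD (m : ℕ) (hm : 0 < m) (v : ℕ) : Fin m := ⟨v % m, Nat.mod_lt v hm⟩

lemma isDecode_fin (m : ℕ) (hm : 0 < m) : IsDecode m (finD m hm) := by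
  refine ⟨hm, ?_, ?_, ?_⟩
  · intro v
    unfold finD
    simp
  · intro v hv w hw h
    unfold finD at h
    have := congrArg Fin.val h
    simp only [Nat.mod_eq_of_lt hv, Nat.mod_eq_of_lt hw] at this
    exact this
  · intro s
    refine ⟨s, s.2, ?_⟩
    unfold finD
    exact Fin.ext (Nat.mod_eq_of_lt s.2)

/-- parity -/
def coinD (v : ℕ) : Bool := decide (v % 2 = 1)

lemma isDecode_coin : IsDecode 2 coinD := by
  refine ⟨by norm_num, ?_, ?_, ?_⟩
  · intro v
    unfold coinD
    simp
  · intro v hv w hw h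
    unfold coinD at h
    rw [decide_eq_decide] at h
    omega
  · intro s
    cases s
    · exact ⟨0, by norm_num, rfl⟩
    · exact ⟨1, by norm_num, rfl⟩

/-- the choice `(k, a, b, d, coin)` encoded by the number `v` -/
def decode {m n : ℕ} (hm : 0 < m) (hn : 0 < n) (D : ℕ) (v : ℕ) :
    Fin m × Fin n × Fin n × Fin (D + 1) × Bool :=
  (⟨v % m, Nat.mod_lt _ hm⟩, ⟨v / m % n, Nat.mod_lt _ hn⟩, ⟨v / m / n % n, Nat.mod_lt _ hn⟩,
    ⟨v / m / n / n % (D + 1), Nat.mod_lt _ (Nat.succ_pos D)⟩,
    decide (v / m / n / n / (D + 1) % 2 = 1))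

lemma isDecode_decode {m n : ℕ} (hm : 0 < m) (hn : 0 < n) (D : ℕ) :
    IsDecode (m * (n * (n * ((D + 1) * 2)))) (decode hm hn D) :=
  (isDecode_fin m hm).pair ((isDecode_fin n hn).pair ((isDecode_fin n hn).pair
    ((isDecode_fin (D + 1) (Nat.succ_pos D)).pair isDecode_coin)))

/-! ## one long string of bits -/

lemma lawOf_equiv {m' n' : ℕ} {S S' : Type} [Fintype S] [Fintype S'] (e : S ≃ S')
    (out : S' → Fin m' → Fin n' → ℕ) (X : Fin m' → Fin n' → ℕ) :
    lawOf (fun ω => out (e ω)) X = lawOf out X := by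
  classical
  unfold lawOf
  rw [Fintype.card_congr e]
  congr 2
  apply Finset.card_bij (fun a _ => e a)
  · intro a ha
    rw [mem_filter] at ha ⊢
    exact ⟨mem_univ _, ha.2⟩
  · intro a _ b _ h
    exact e.injective h
  · intro b hb
    rw [mem_filter] at hb
    exact ⟨e.symm b, mem_filter.2 ⟨mem_univ _, by simpa using hb.2⟩, by simp⟩

/-- the choices for `K` attempts of `T` steps from a string of `K * T * q` bits: the choice of step
`t` of attempt `i` is given by the bits `(i * T + t) * q, …, (i * T + t) * q + q - 1` -/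
def choices {m n : ℕ} (hm : 0 < m) (hn : 0 < n) (D : ℕ) {K T q : ℕ} (ω : Fin (K * T * q) → Bool)
    (i : Fin K) (t : Fin T) : Fin m × Fin n × Fin n × Fin (D + 1) × Bool :=
  decode hm hn D (bval fun b : Fin q => ω (finProdFinEquiv (finProdFinEquiv (i, t), b)))

theorem lawOf_choices {m n : ℕ} (hm : 0 < m) (hn : 0 < n) (D K T q : ℕ)
    (out : (Fin K → Fin T → Fin m × Fin n × Fin n × Fin (D + 1) × Bool) → Fin m → Fin n → ℕ)
    (U : Finset (Fin m → Fin n → ℕ)) :
    ∑ X ∈ U, |lawOf (fun ω : Fin (K * T * q) → Bool => out (choices hm hn D ω)) X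
      - lawOf out X| ≤ (K * T : ℝ) * ((m * (n * (n * ((D + 1) * 2))) : ℝ) / 2 ^ q) := by
  have : Nonempty (Fin m × Fin n × Fin n × Fin (D + 1) × Bool) :=
    ⟨(⟨0, hm⟩, ⟨0, hn⟩, ⟨0, hn⟩, 0, true)⟩
  -- flatten the choices
  let e1 : (Fin (K * T) → Fin m × Fin n × Fin n × Fin (D + 1) × Bool) ≃
      (Fin K → Fin T → Fin m × Fin n × Fin n × Fin (D + 1) × Bool) :=
    (Equiv.arrowCongr finProdFinEquiv.symm (Equiv.refl _)).trans (Equiv.curry _ _ _)
  let e2 : (Fin (K * T * q) → Bool) ≃ (Fin (K * T) → Fin q → Bool) :=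
    (Equiv.arrowCongr finProdFinEquiv.symm (Equiv.refl _)).trans (Equiv.curry _ _ _)
  have h1 := lawOf_bits (isDecode_decode hm hn D) q (K * T) (fun s => out (e1 s)) U
  have h2 : ∀ X, lawOf (fun s => out (e1 s)) X = lawOf out X := fun X => lawOf_equiv e1 out X
  have h3 : ∀ X, lawOf (fun ω : Fin (K * T * q) → Bool => out (choices hm hn D ω)) X =
      lawOf (fun ω : Fin (K * T) → Fin q → Bool =>
        out (e1 fun i => decode hm hn D (bval (ω i)))) X := by
    intro X
    rw [← lawOf_equiv e2]
    rfl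
  simp only [h2] at h1
  simp only [h3]
  push_cast at h1
  exact h1

end Vale.P328B.BITS
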