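import Mathlib

/-! # P328, binary margins: dyadic line inequality (helper28) -/

namespace Vale.P328B.LINE
open Finset BigOperators

/-- sum of the squared differences at distance `d` inside `[0, L)` -/
noncomputable def T (f : ℕ → ℝ) (L d : ℕ) : ℝ := ∑ x ∈ range (L - d), (f (x + d) - f x) ^ 2

theorem T_nonneg (f : ℕ → ℝ) (L d : ℕ) : 0 ≤ T f L d :=
  Finset.sum_nonneg fun _ _ => sq_nonneg _

theorem T_zero (f : ℕ → ℝ) (L : ℕ) : T f L 0 = 0 := by
  unfold T
  refine Finset.sum_eq_zero fun x _ => ?_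
  rw [add_zero, sub_self]
  norm_num

theorem arith (D a b : ℝ) (hD : 0 < D) :
    (a + b) ^ 2 ≤ (D + 1) * a ^ 2 + (D + 1) / D * b ^ 2 := by
  have h : (D + 1) * a ^ 2 + (D + 1) / D * b ^ 2 - (a + b) ^ 2 = (D * a - b) ^ 2 / D := by
    field_simp
    ring
  have h2 : 0 ≤ (D * a - b) ^ 2 / D := div_nonneg (sq_nonneg _) hD.le
  linarith

theorem T_shift (f : ℕ → ℝ) (L P d : ℕ) :
    ∑ x ∈ range (L - (P + d)), (f (x + d + P) - f (x + d)) ^ 2 ≤ T f L P := by
  unfold T
  have h1 : ∑ x ∈ range (L - (P + d)), (f (x + d + P) - f (x + d)) ^ 2 =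
      ∑ z ∈ (range (L - (P + d))).map (addRightEmbedding d), (f (z + P) - f z) ^ 2 := by
    rw [Finset.sum_map]
    rfl
  rw [h1]
  refine Finset.sum_le_sum_of_subset_of_nonneg ?_ fun _ _ _ => sq_nonneg _
  intro z hz
  rw [Finset.mem_map] at hz
  obtain ⟨x, hx, rfl⟩ := hz
  rw [Finset.mem_range] at hx ⊢
  change x + d < L - P
  omega

theorem T_split (f : ℕ → ℝ) (L P d : ℕ) (D : ℝ) (hD : 0 < D) :
    T f L (P + d) ≤ (D + 1) * T f L P + (D + 1) / D * T f L d := by
  have h1 : T f L (P + d) ≤ ∑ x ∈ range (L - (P + d)),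
      ((D + 1) * (f (x + d + P) - f (x + d)) ^ 2 + (D + 1) / D * (f (x + d) - f x) ^ 2) := by
    unfold T
    refine Finset.sum_le_sum fun x _ => ?_
    have he : f (x + (P + d)) - f x = (f (x + d + P) - f (x + d)) + (f (x + d) - f x) := by
      rw [show x + (P + d) = x + d + P by ring]
      ring
    rw [he]
    exact arith D _ _ hD
  rw [Finset.sum_add_distrib, ← Finset.mul_sum, ← Finset.mul_sum] at h1
  have h2 := T_shift f L P d
  have h3 : ∑ x ∈ range (L - (P + d)), (f (x + d) - f x) ^ 2 ≤ T f L d := by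
    unfold T
    refine Finset.sum_le_sum_of_subset_of_nonneg ?_ fun _ _ _ => sq_nonneg _
    intro z hz
    rw [Finset.mem_range] at hz ⊢
    omega
  have h4 : (D + 1) * ∑ x ∈ range (L - (P + d)), (f (x + d + P) - f (x + d)) ^ 2 ≤
      (D + 1) * T f L P := mul_le_mul_of_nonneg_left h2 (by linarith)
  have h5 : (D + 1) / D * ∑ x ∈ range (L - (P + d)), (f (x + d) - f x) ^ 2 ≤
      (D + 1) / D * T f L d := mul_le_mul_of_nonneg_left h3 (by positivity)
  linarith

theorem T_le (f : ℕ → ℝ) (L : ℕ) : ∀ (D d : ℕ), d < 2 ^ D →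
    T f L d ≤ D * ∑ e ∈ range D, T f L (2 ^ e) := by
  intro D
  induction D with
  | zero =>
    intro d hd
    have : d = 0 := by
      rw [pow_zero] at hd
      omega
    subst this
    rw [T_zero]
    simp
  | succ D ih =>
    intro d hd
    have hs : 0 ≤ ∑ e ∈ range D, T f L (2 ^ e) := Finset.sum_nonneg fun _ _ => T_nonneg _ _ _
    have hP : 0 ≤ T f L (2 ^ D) := T_nonneg _ _ _
    rw [Finset.sum_range_succ]
    push_cast
    by_cases h : d < 2 ^ D
    · have h1 := ih d h
      have hD : (0 : ℝ) ≤ D := Nat.cast_nonneg D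
      nlinarith [mul_nonneg hD hP]
    · have hd2 : d - 2 ^ D < 2 ^ D := by
        rw [pow_succ] at hd
        omega
      have he : d = 2 ^ D + (d - 2 ^ D) := by omega
      rcases Nat.eq_zero_or_pos D with h0 | h0
      · subst h0
        have : d = 1 := by
          rw [pow_zero] at *
          rw [zero_add, pow_one] at hd
          omega
        subst this
        simp
      · have hD : (0 : ℝ) < D := by exact_mod_cast h0
        have h1 := ih _ hd2
        have h2 := T_split f L (2 ^ D) (d - 2 ^ D) D hD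
        rw [← he] at h2
        have h3 : ((D : ℝ) + 1) / D * T f L (d - 2 ^ D) ≤
            ((D : ℝ) + 1) / D * (D * ∑ e ∈ range D, T f L (2 ^ e)) :=
          mul_le_mul_of_nonneg_left h1 (by positivity)
        have h4 : ((D : ℝ) + 1) / D * (D * ∑ e ∈ range D, T f L (2 ^ e)) =
            ((D : ℝ) + 1) * ∑ e ∈ range D, T f L (2 ^ e) := by
          field_simp
        rw [h4] at h3
        linarith

theorem T_eq (f : ℕ → ℝ) (L d : ℕ) :
    T f L d = ∑ z ∈ range L, if z + d < L then (f (z + d) - f z) ^ 2 else 0 := by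
  unfold T
  rw [← Finset.sum_filter]
  refine Finset.sum_congr ?_ fun _ _ => rfl
  ext z
  rw [Finset.mem_filter, Finset.mem_range, Finset.mem_range]
  omega

theorem pairs_eq (f : ℕ → ℝ) (L : ℕ) :
    ∑ x ∈ range L, ∑ y ∈ range L, (if x < y then (f y - f x) ^ 2 else 0) =
      ∑ d ∈ range L, T f L d := by
  have h1 : ∀ x ∈ range L, ∑ y ∈ range L, (if x < y then (f y - f x) ^ 2 else 0) =
      ∑ d ∈ range L, (if x + d < L then (f (x + d) - f x) ^ 2 else 0) := by
    intro x hx
    rw [← Finset.sum_filter, ← Finset.sum_filter]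
    rw [Finset.mem_range] at hx
    have h2 : ∑ d ∈ (range L).filter (fun d => x + d < L), (f (x + d) - f x) ^ 2 =
        ∑ d ∈ (range (L - x)), (f (x + d) - f x) ^ 2 := by
      refine Finset.sum_congr ?_ fun _ _ => rfl
      ext z
      rw [Finset.mem_filter, Finset.mem_range, Finset.mem_range]
      omega
    rw [h2]
    have h3 : ∑ d ∈ (range (L - x)), (f (x + d) - f x) ^ 2 =
        ∑ y ∈ Finset.Ico x L, (f y - f x) ^ 2 := by
      rw [Finset.sum_Ico_eq_sum_range]
    rw [h3, Finset.sum_eq_sum_Ico_succ_bot hx, sub_self]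
    rw [zero_pow two_ne_zero, zero_add]
    refine Finset.sum_congr ?_ fun _ _ => rfl
    ext z
    rw [Finset.mem_filter, Finset.mem_range, Finset.mem_Ico]
    omega
  rw [Finset.sum_congr rfl h1, Finset.sum_comm]
  exact Finset.sum_congr rfl fun d _ => (T_eq f L d).symm

theorem thm (D L : ℕ) (f : ℕ → ℝ) (h : L ≤ 2 ^ (D + 1)) :
    ∑ x ∈ range L, ∑ y ∈ range L, (if x < y then (f y - f x) ^ 2 else 0) ≤
      ((D : ℝ) + 1) * L * ∑ e ∈ range (D + 1), ∑ z ∈ range L,
        (if z + 2 ^ e < L then (f (z + 2 ^ e) - f z) ^ 2 else 0) := by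
  rw [pairs_eq]
  have h1 : ∀ d ∈ range L, T f L d ≤ ((D + 1 : ℕ) : ℝ) * ∑ e ∈ range (D + 1), T f L (2 ^ e) := by
    intro d hd
    rw [Finset.mem_range] at hd
    exact T_le f L (D + 1) d (lt_of_lt_of_le hd h)
  have h2 := Finset.sum_le_sum h1
  rw [Finset.sum_const, Finset.card_range, nsmul_eq_mul] at h2
  have h3 : ∑ e ∈ range (D + 1), T f L (2 ^ e) = ∑ e ∈ range (D + 1), ∑ z ∈ range L,
        (if z + 2 ^ e < L then (f (z + 2 ^ e) - f z) ^ 2 else 0) :=
    Finset.sum_congr rfl fun e _ => T_eq f L (2 ^ e)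
  rw [h3] at h2
  push_cast at h2
  calc _ ≤ _ := h2
    _ = _ := by ring

end Vale.P328B.LINE
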