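import Vale.Agent.P328.U.Defs

/-!
# P328, binary margins: statement of the smearing lemma
-/

namespace Vale.P328U
open Finset BigOperators

universe u v

section
variable {ι : Type u} [Fintype ι] [DecidableEq ι] {κ : Type v} [Fintype κ] [DecidableEq κ]

/-- hub entry in column `j` -/
def hb (c : κ → ℕ) (X : ι → κ → ℕ) (j : κ) : ℕ := c j - ∑ i, X i j

/-- `g` has sum zero on every `k`-fibre (tables with given rows other than `k` and the hub) -/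
def MZ (r : ι → ℕ) (c : κ → ℕ) (k : ι) (g : (ι → κ → ℕ) → ℝ) : Prop :=
  ∀ X ∈ Om r c, ∑ Y ∈ (Om r c).filter (fun Y => ∀ i, i ≠ k → Y i = X i), g Y = 0

end

/-- SMEAR -/
def StmtSMEAR : Prop :=
  ∀ (ι : Type u) [Fintype ι] [DecidableEq ι] (κ : Type v) [Fintype κ] [DecidableEq κ]
    (r : ι → ℕ) (c : κ → ℕ) (k l : ι) (psi : (ι → κ → ℕ) → ℝ) (jk jl : (ι → κ → ℕ) → κ),
    k ≠ l → (∀ i, ∑ i, r i + r i + 1 ≤ ∑ j, c j) →
    (∀ X ∈ Om r c, psi X ≠ 0 → hb c X (jk X) = 0 ∧ hb c X (jl X) = 0 ∧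
      1 ≤ X k (jk X) ∧ 1 ≤ X l (jl X)) →
    ∃ eta : (ι → κ → ℕ) → ℝ, MZ r c k eta ∧ MZ r c l eta ∧
      ∑ X ∈ Om r c, (eta X - psi X) ^ 2 ≤
        100 * (Fintype.card κ : ℝ) ^ 4 *
          ∑ X ∈ Om r c, psi X ^ 2 * (1 / (X k (jk X) : ℝ) + 1 / (X l (jl X) : ℝ))

end Vale.P328U
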